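import Mathlib

/-!
# P070 — Naimark's problem for commutative unital C*-algebras

A C*-algebra has property (N) if it is nonzero and any two of its irreducible representations are
unitarily equivalent.  Naimark's problem asks whether property (N) forces the algebra to be
isomorphic to the compact operators `K(H)` on some Hilbert space.  Here: a commutative unital
C*-algebra with property (N) is `*`-isomorphic to `ℂ` (which is `K(H)` for one-dimensional `H`).

Proof: every character `φ` gives a representation `a ↦ φ a • 1` on the one-dimensional Hilbert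
space `ℂ`, which is irreducible.  A unitary equivalence between two of them forces the two
characters to be equal, so the character space is a single point and the Gelfand transform
identifies the algebra with `C(point, ℂ) = ℂ`.
-/

namespace Vale.Agent.Results.P070.A_Commutative

universe u

/-- A representation `π : A → B(H)` (a `*`-homomorphism, not assumed unital) is *irreducible*: it is
nonzero (`π a ≠ 0` for some `a`) and the only closed subspaces of `H` invariant under all `π a`
are `0` and `H`. -/
def IsIrreducibleRep {A : Type u} [NonUnitalNonAssocSemiring A] [Module ℂ A] [Star A]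
    {H : Type} [NormedAddCommGroup H] [InnerProductSpace ℂ H] [CompleteSpace H]
    (π : A →⋆ₙₐ[ℂ] (H →L[ℂ] H)) : Prop :=
  (∃ a : A, π a ≠ 0) ∧ ∀ M : Submodule ℂ H, IsClosed (M : Set H) →
    (∀ a : A, ∀ x ∈ M, π a x ∈ M) → M = ⊥ ∨ M = ⊤

/-- Two representations are *unitarily equivalent*: some unitary `U : H₁ → H₂` satisfies
`U π(a) = σ(a) U` for all `a`. -/
def UnitarilyEquivalent {A : Type u} [NonUnitalNonAssocSemiring A] [Module ℂ A] [Star A]
    {H₁ : Type} [NormedAddCommGroup H₁] [InnerProductSpace ℂ H₁] [CompleteSpace H₁]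
    {H₂ : Type} [NormedAddCommGroup H₂] [InnerProductSpace ℂ H₂] [CompleteSpace H₂]
    (π : A →⋆ₙₐ[ℂ] (H₁ →L[ℂ] H₁)) (σ : A →⋆ₙₐ[ℂ] (H₂ →L[ℂ] H₂)) : Prop :=
  ∃ U : H₁ ≃ₗᵢ[ℂ] H₂, ∀ (a : A) (x : H₁), U (π a x) = σ a (U x)

/-- Property (N): `A ≠ 0` and any two irreducible representations of `A` (on complex Hilbert
spaces) are unitarily equivalent. -/
def PropertyN (A : Type u) [NonUnitalNonAssocSemiring A] [Module ℂ A] [Star A] : Prop :=
  Nontrivial A ∧
    ∀ (H₁ : Type) [NormedAddCommGroup H₁] [InnerProductSpace ℂ H₁] [CompleteSpace H₁]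
      (H₂ : Type) [NormedAddCommGroup H₂] [InnerProductSpace ℂ H₂] [CompleteSpace H₂]
      (π : A →⋆ₙₐ[ℂ] (H₁ →L[ℂ] H₁)) (σ : A →⋆ₙₐ[ℂ] (H₂ →L[ℂ] H₂)),
      IsIrreducibleRep π → IsIrreducibleRep σ → UnitarilyEquivalent π σ

section

variable {A : Type u} [CommCStarAlgebra A]

/-- The one-dimensional representation attached to a character. -/
noncomputable def charRep (φ : WeakDual.characterSpace ℂ A) : A →⋆ₙₐ[ℂ] (ℂ →L[ℂ] ℂ) where
  toFun a := φ a • ContinuousLinearMap.id ℂ ℂ
  map_smul' c a := by
    ext
    simp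
  map_zero' := by
    ext
    simp
  map_add' a b := by
    ext
    simp
  map_mul' a b := by
    ext
    simp
  map_star' a := by
    ext
    simp [map_star, ContinuousLinearMap.star_eq_adjoint, ContinuousLinearMap.adjoint_id]

theorem charRep_apply (φ : WeakDual.characterSpace ℂ A) (a : A) (x : ℂ) :
    charRep φ a x = φ a * x := by
  simp [charRep]

theorem charRep_irreducible (φ : WeakDual.characterSpace ℂ A) : IsIrreducibleRep (charRep φ) := by
  refine ⟨?_, ?_⟩
  · refine ⟨1, fun h => ?_⟩
    have h1 : charRep φ (1 : A) (1 : ℂ) = 0 := by rw [h]; simp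
    rw [charRep_apply] at h1
    simp at h1
  · intro M _ _
    exact eq_bot_or_eq_top M

theorem char_eq_of_equiv (φ ψ : WeakDual.characterSpace ℂ A)
    (h : UnitarilyEquivalent (charRep φ) (charRep ψ)) : φ = ψ := by
  obtain ⟨U, hU⟩ := h
  have hU1 : U 1 ≠ 0 := by
    intro h0
    have : (1 : ℂ) = 0 := U.injective (by rw [h0, map_zero])
    exact one_ne_zero this
  ext a
  have h1 := hU a 1
  rw [charRep_apply, charRep_apply, mul_one] at h1
  have h2 : U (φ a) = φ a * U 1 := by
    have : (φ a : ℂ) = φ a • (1 : ℂ) := by simp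
    rw [this, map_smul]; simp
  rw [h2] at h1
  exact mul_right_cancel₀ hU1 h1

end

/-- **Hand-in.** A commutative unital C*-algebra with property (N) is `*`-isomorphic to `ℂ`. -/
theorem result (A : Type u) [CommCStarAlgebra A] (hN : PropertyN A) :
    Nonempty (A ≃⋆ₐ[ℂ] ℂ) := by
  obtain ⟨hnt, hall⟩ := hN
  have hsub : Subsingleton (WeakDual.characterSpace ℂ A) :=
    ⟨fun φ ψ => char_eq_of_equiv φ ψ
      (hall ℂ ℂ (charRep φ) (charRep ψ) (charRep_irreducible φ) (charRep_irreducible ψ))⟩
  obtain ⟨φ₀⟩ : Nonempty (WeakDual.characterSpace ℂ A) := inferInstance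
  let ev : C(WeakDual.characterSpace ℂ A, ℂ) →⋆ₐ[ℂ] ℂ := ContinuousMap.evalStarAlgHom ℂ ℂ φ₀
  have hbij : Function.Bijective ev := by
    constructor
    · intro f g hfg
      ext x
      have hx : x = φ₀ := Subsingleton.elim _ _
      rw [hx]
      exact hfg
    · intro c
      exact ⟨ContinuousMap.const _ c, rfl⟩
  exact ⟨(gelfandStarTransform A).trans (StarAlgEquiv.ofBijective ev hbij)⟩

end Vale.Agent.Results.P070.A_Commutative
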