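import Mathlib
import Vale.Agent.Results.P070.A_Commutative

/-!
# P070 — Naimark's problem for commutative C*-algebras (unital or not)

A commutative C*-algebra `A`, not assumed unital, with property (N) is `*`-isomorphic to `ℂ`.

Proof: pass to the unitization `A⁺¹`, a commutative unital C*-algebra.  A character `χ` of `A⁺¹`
that does not vanish on `A` restricts to an irreducible representation of `A` on the
one-dimensional Hilbert space `ℂ`.  By property (N) any two such restrictions are unitarily
equivalent, hence equal on `A`.  Since the Gelfand transform of `A⁺¹` is injective, the restriction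
of one such character to `A` is then injective; it is a surjective `*`-homomorphism onto `ℂ`.
-/

namespace Vale.Agent.Results.P070.B_NonUnitalCommutative

open Vale.Agent.Results.P070.A_Commutative

universe u

section

variable {A : Type u} [NonUnitalCommCStarAlgebra A]

/-- Restriction to `A` of a character of the unitization, as a `*`-homomorphism `A → ℂ`. -/
noncomputable def restr (χ : WeakDual.characterSpace ℂ (Unitization ℂ A)) : A →⋆ₙₐ[ℂ] ℂ where
  toFun a := χ (a : Unitization ℂ A)
  map_smul' c a := by simp [Unitization.inr_smul]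
  map_zero' := by simp
  map_add' a b := by simp [Unitization.inr_add]
  map_mul' a b := by simp [Unitization.inr_mul]
  map_star' a := by simp [Unitization.inr_star, map_star]

/-- The representation of `A` on `ℂ` given by a character of the unitization. -/
noncomputable def rep (χ : WeakDual.characterSpace ℂ (Unitization ℂ A)) :
    A →⋆ₙₐ[ℂ] (ℂ →L[ℂ] ℂ) :=
  (charRep χ).comp (Unitization.inrNonUnitalStarAlgHom ℂ A)

theorem rep_apply (χ : WeakDual.characterSpace ℂ (Unitization ℂ A)) (a : A) (x : ℂ) :
    rep χ a x = χ (a : Unitization ℂ A) * x := by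
  simp [rep, charRep_apply]

theorem rep_irreducible (χ : WeakDual.characterSpace ℂ (Unitization ℂ A))
    (h : ∃ a : A, χ (a : Unitization ℂ A) ≠ 0) : IsIrreducibleRep (rep χ) := by
  obtain ⟨a, ha⟩ := h
  refine ⟨⟨a, fun h0 => ha ?_⟩, fun M _ _ => eq_bot_or_eq_top M⟩
  have h1 : rep χ a (1 : ℂ) = 0 := by rw [h0]; simp
  rw [rep_apply, mul_one] at h1
  exact h1

theorem eq_of_equiv (χ ψ : WeakDual.characterSpace ℂ (Unitization ℂ A))
    (h : UnitarilyEquivalent (rep χ) (rep ψ)) (a : A) :
    χ (a : Unitization ℂ A) = ψ (a : Unitization ℂ A) := by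
  obtain ⟨U, hU⟩ := h
  have hU1 : U 1 ≠ 0 := by
    intro h0
    have : (1 : ℂ) = 0 := U.injective (by rw [h0, map_zero])
    exact one_ne_zero this
  have h1 := hU a 1
  rw [rep_apply, rep_apply, mul_one] at h1
  have h2 : U (χ (a : Unitization ℂ A)) = χ (a : Unitization ℂ A) * U 1 := by
    have : (χ (a : Unitization ℂ A) : ℂ) = χ (a : Unitization ℂ A) • (1 : ℂ) := by simp
    rw [this, map_smul]; simp
  rw [h2] at h1
  exact mul_right_cancel₀ hU1 h1

end

/-- **Hand-in.** A commutative C*-algebra (not assumed unital) with property (N) is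
`*`-isomorphic to `ℂ`. -/
theorem result (A : Type u) [NonUnitalCommCStarAlgebra A] (hN : PropertyN A) :
    Nonempty (A ≃⋆ₐ[ℂ] ℂ) := by
  obtain ⟨hnt, hall⟩ := hN
  have key : ∀ a : A, a ≠ 0 →
      ∃ χ : WeakDual.characterSpace ℂ (Unitization ℂ A), χ (a : Unitization ℂ A) ≠ 0 := by
    intro a ha
    by_contra hcon
    have hcon' : ∀ χ : WeakDual.characterSpace ℂ (Unitization ℂ A),
        χ (a : Unitization ℂ A) = 0 := by
      intro χ
      by_contra hχ
      exact hcon ⟨χ, hχ⟩
    apply ha
    have hg : WeakDual.gelfandTransform ℂ (Unitization ℂ A) (a : Unitization ℂ A) = 0 := by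
      ext χ
      simpa using hcon' χ
    have h0 : (a : Unitization ℂ A) = 0 :=
      (gelfandTransform_bijective (Unitization ℂ A)).injective (hg.trans (map_zero _).symm)
    exact Unitization.inr_injective (R := ℂ) (h0.trans (Unitization.inr_zero ℂ).symm)
  obtain ⟨a₀, ha₀⟩ := exists_ne (0 : A)
  obtain ⟨χ₀, hχ₀⟩ := key a₀ ha₀
  have hbij : Function.Bijective (restr χ₀) := by
    constructor
    · rw [injective_iff_map_eq_zero]
      intro a ha
      by_contra hne
      obtain ⟨χ, hχ⟩ := key a hne
      have h1 := eq_of_equiv χ χ₀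
        (hall ℂ ℂ (rep χ) (rep χ₀) (rep_irreducible χ ⟨a, hχ⟩) (rep_irreducible χ₀ ⟨a₀, hχ₀⟩)) a
      exact hχ (h1.trans ha)
    · intro c
      refine ⟨(c / χ₀ (a₀ : Unitization ℂ A)) • a₀, ?_⟩
      change χ₀ (((c / χ₀ (a₀ : Unitization ℂ A)) • a₀ : A) : Unitization ℂ A) = c
      rw [Unitization.inr_smul, map_smul, smul_eq_mul]
      field_simp
  exact ⟨StarAlgEquiv.ofBijective (restr χ₀) hbij⟩

end Vale.Agent.Results.P070.B_NonUnitalCommutative
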